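/-
P235, all planar graphs, row SPLIT (helper588), part 1: curves are the cycles of a permutation of
the crossings; exchanging two exits on one curve splits it; norms do not decrease.
-/
import Vale.Agent.P235.R2.H271.CB

namespace Vale.Agent.P235.R2.H588

open Equiv Equiv.Perm

variable {E F : Type}

/-- every orbit step of `τ * swap a b` stays on the `τ`-cycle if `a`, `b` are on one `τ`-cycle -/
theorem same_step [DecidableEq E] {τ : Perm E} {a b : E} (hab : τ.SameCycle a b) (x : E) :
    τ.SameCycle x ((τ * swap a b) x) := by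
  rw [Perm.mul_apply]
  by_cases hxa : x = a
  · subst hxa
    rw [swap_apply_left]
    exact hab.trans (sameCycle_apply_right.2 (SameCycle.refl _ _))
  · by_cases hxb : x = b
    · subst hxb
      rw [swap_apply_right]
      exact hab.symm.trans (sameCycle_apply_right.2 (SameCycle.refl _ _))
    · rw [swap_apply_of_ne_of_ne hxa hxb]
      exact sameCycle_apply_right.2 (SameCycle.refl _ _)

/-- if every step of `τ'` stays on a cycle of `τ`, the cycles of `τ'` refine those of `τ` -/
theorem refine_of_step {τ τ' : Perm E} (h : ∀ x, τ.SameCycle x (τ' x)) {x y : E}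
    (hxy : τ'.SameCycle x y) : τ.SameCycle x y := by
  obtain ⟨n, rfl⟩ := hxy
  induction n using Int.induction_on with
  | zero => exact SameCycle.refl _ _
  | succ n ih =>
    have h1 := h ((τ' ^ (n : ℤ)) x)
    rw [← Perm.mul_apply, ← zpow_one_add, add_comm] at h1
    exact ih.trans h1
  | pred n ih =>
    have h1 := h ((τ' ^ (-(n : ℤ) - 1)) x)
    rw [← Perm.mul_apply, ← zpow_one_add] at h1
    rw [show (1 : ℤ) + (-(n : ℤ) - 1) = -(n : ℤ) by ring] at h1
    exact ih.trans h1.symm

/-- splitting refines the cycles -/
theorem split_refine [DecidableEq E] {τ : Perm E} {a b : E} (hab : τ.SameCycle a b) {x y : E}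
    (hxy : (τ * swap a b).SameCycle x y) : τ.SameCycle x y :=
  refine_of_step (same_step hab) hxy

/-- after the exchange the two crossings are on different cycles -/
theorem split_ne [DecidableEq E] [Finite E] {τ : Perm E} {a b : E} (hne : a ≠ b)
    (hab : τ.SameCycle a b) : ¬ (τ * swap a b).SameCycle b a := by
  classical
  obtain ⟨n0, hn0⟩ := hab.exists_nat_pow_eq
  have hex : ∃ n : ℕ, (τ ^ n) a = b := ⟨n0, hn0⟩
  let n := Nat.find hex
  have hn : (τ ^ n) a = b := Nat.find_spec hex
  have hmin : ∀ j < n, (τ ^ j) a ≠ b := fun j hj => Nat.find_min hex hj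
  have hnpos : 0 < n := by
    rcases Nat.eq_zero_or_pos n with h0 | h0
    · exfalso
      rw [h0, pow_zero, Perm.one_apply] at hn
      exact hne hn
    · exact h0
  have hna : ∀ j, 0 < j → j ≤ n → (τ ^ j) a ≠ a := by
    intro j hj hjn h
    rcases Nat.lt_or_ge j n with h1 | h1
    · have h2 : (τ ^ (n - j)) a = b := by
        have h3 : (τ ^ n) a = (τ ^ (n - j)) ((τ ^ j) a) := by
          rw [← Perm.mul_apply, ← pow_add]
          congr 2
          omega
        rw [h] at h3
        rw [← h3, hn]
      exact hmin (n - j) (by omega) h2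
    · have h2 : j = n := le_antisymm hjn h1
      rw [h2, hn] at h
      exact hne h.symm
  have key : ∀ m : ℕ, ∃ j, 0 < j ∧ j ≤ n ∧ ((τ * swap a b) ^ m) b = (τ ^ j) a := by
    intro m
    induction m with
    | zero => exact ⟨n, hnpos, le_refl _, by rw [pow_zero, Perm.one_apply, hn]⟩
    | succ m ih =>
      obtain ⟨j, hj, hjn, h⟩ := ih
      rw [pow_succ', Perm.mul_apply, h]
      rcases Nat.lt_or_ge j n with h1 | h1
      · refine ⟨j + 1, by omega, by omega, ?_⟩
        rw [Perm.mul_apply, swap_apply_of_ne_of_ne (hna j hj hjn) (hmin j h1), pow_succ',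
          Perm.mul_apply]
      · have h2 : j = n := le_antisymm hjn h1
        refine ⟨1, by omega, by omega, ?_⟩
        rw [h2, hn, Perm.mul_apply, swap_apply_right, pow_one]
  intro h
  obtain ⟨m, hm⟩ := h.exists_nat_pow_eq
  obtain ⟨j, hj, hjn, h1⟩ := key m
  rw [hm] at h1
  exact hna j hj hjn h1.symm

open scoped Classical in
/-- one step of the pass: split at the pair `(a, b)` if both are on one cycle -/
noncomputable def step (τ : Perm E) (p : E × E) : Perm E :=
  if p.1 ≠ p.2 ∧ τ.SameCycle p.1 p.2 then τ * swap p.1 p.2 else τ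

/-- a pass over a list of pairs -/
noncomputable def run (τ : Perm E) (l : List (E × E)) : Perm E := l.foldl step τ

theorem step_refine {τ : Perm E} {p : E × E} {x y : E} (h : (step τ p).SameCycle x y) :
    τ.SameCycle x y := by
  classical
  unfold step at h
  split_ifs at h with h1
  · exact split_refine h1.2 h
  · exact h

theorem run_refine {l : List (E × E)} {τ : Perm E} {x y : E} (h : (run τ l).SameCycle x y) :
    τ.SameCycle x y := by
  induction l generalizing τ with
  | nil => exact h
  | cons p l ih => exact step_refine (ih h)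

theorem step_ne [Finite E] {τ : Perm E} {p : E × E} (hp : p.1 ≠ p.2) :
    ¬ (step τ p).SameCycle p.1 p.2 := by
  classical
  intro h
  unfold step at h
  split_ifs at h with h1
  · exact split_ne hp h1.2 h.symm
  · exact h1 ⟨hp, h⟩

theorem run_ne [Finite E] {l : List (E × E)} {τ : Perm E} {p : E × E} (hp : p.1 ≠ p.2)
    (hl : p ∈ l) : ¬ (run τ l).SameCycle p.1 p.2 := by
  induction l generalizing τ with
  | nil => simp at hl
  | cons q l ih =>
    rcases List.mem_cons.1 hl with h1 | h1
    · intro h
      subst h1
      exact step_ne hp (run_refine (l := l) h)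
    · exact ih h1

/-- the curve through a crossing goes on in the face it enters -/
def Compat (src tgt : E → F) (τ : Perm E) : Prop := ∀ e, src (τ e) = tgt e

/-- every curve enters every face at most once -/
def Clean (tgt : E → F) (τ : Perm E) : Prop :=
  ∀ a b, tgt a = tgt b → τ.SameCycle a b → a = b

theorem step_compat {src tgt : E → F} {τ : Perm E} (h : Compat src tgt τ) {p : E × E}
    (hp : tgt p.1 = tgt p.2) : Compat src tgt (step τ p) := by
  classical
  unfold step
  split_ifs with h1
  · intro e
    rw [Perm.mul_apply, h]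
    by_cases h2 : e = p.1
    · rw [h2, swap_apply_left, hp]
    · by_cases h3 : e = p.2
      · rw [h3, swap_apply_right, hp]
      · rw [swap_apply_of_ne_of_ne h2 h3]
  · exact h

theorem run_compat {src tgt : E → F} {l : List (E × E)} {τ : Perm E} (h : Compat src tgt τ)
    (hl : ∀ p ∈ l, tgt p.1 = tgt p.2) : Compat src tgt (run τ l) := by
  induction l generalizing τ with
  | nil => exact h
  | cons p l ih =>
    exact ih (step_compat h (hl p (List.mem_cons_self ..)))
      (fun q hq => hl q (List.mem_cons_of_mem _ hq))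

/-- one pass over a list which contains all pairs entering the same face is enough -/
theorem run_clean [Finite E] {tgt : E → F} {l : List (E × E)} {τ : Perm E}
    (hl : ∀ a b, a ≠ b → tgt a = tgt b → (a, b) ∈ l ∨ (b, a) ∈ l) : Clean tgt (run τ l) := by
  intro a b hab h
  by_contra hne
  rcases hl a b hne hab with h1 | h1
  · exact run_ne (p := (a, b)) hne h1 h
  · exact run_ne (p := (b, a)) (fun h => hne h.symm) h1 h.symm

theorem exists_clean [Finite E] {src tgt : E → F} {τ : Perm E} (h : Compat src tgt τ) :
    ∃ τ' : Perm E, Compat src tgt τ' ∧ Clean tgt τ' ∧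
      ∀ x y, τ'.SameCycle x y → τ.SameCycle x y := by
  classical
  have := Fintype.ofFinite E
  let l : List (E × E) := (Finset.univ.filter (fun p : E × E => tgt p.1 = tgt p.2)).toList
  refine ⟨run τ l, run_compat h ?_, run_clean ?_, fun x y => run_refine⟩
  · intro p hp
    have := Finset.mem_toList.1 hp
    exact (Finset.mem_filter.1 this).2
  · intro a b _ hab
    left
    exact Finset.mem_toList.2 (Finset.mem_filter.2 ⟨Finset.mem_univ _, hab⟩)

/-- the curves -/
abbrev Cyc (τ : Perm E) : Type := Quotient (SameCycle.setoid τ)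

/-- the curve of a crossing -/
def cyc (τ : Perm E) (e : E) : Cyc τ := Quotient.mk _ e

theorem cyc_eq {τ : Perm E} {e e' : E} : cyc τ e = cyc τ e' ↔ τ.SameCycle e e' :=
  ⟨fun h => Quotient.exact h, fun h => Quotient.sound h⟩

open scoped Classical in
/-- the sum over all curves of `|∑ of s over the crossings of the curve|` -/
noncomputable def nrm [Fintype E] (τ : Perm E) (s : E → ℝ) : ℝ :=
  ∑ q : Cyc τ, |∑ e, if cyc τ e = q then s e else 0|

theorem nrm_mono [Fintype E] {τ τ' : Perm E} (h : ∀ x y, τ'.SameCycle x y → τ.SameCycle x y)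
    (s : E → ℝ) : nrm τ s ≤ nrm τ' s := by
  classical
  let f : Cyc τ' → Cyc τ := Quotient.map' id (fun x y hxy => h x y hxy)
  have hf : ∀ e, f (cyc τ' e) = cyc τ e := fun e => rfl
  unfold nrm
  have h1 : ∀ q : Cyc τ, ∑ e, (if cyc τ e = q then s e else 0) =
      ∑ q' : Cyc τ' with f q' = q, ∑ e, (if cyc τ' e = q' then s e else 0) := by
    intro q
    rw [Finset.sum_comm]
    refine Finset.sum_congr rfl fun e _ => ?_
    rw [Finset.sum_ite_eq]
    simp only [Finset.mem_filter, Finset.mem_univ, true_and, hf]
  calc ∑ q : Cyc τ, |∑ e, if cyc τ e = q then s e else 0|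
      ≤ ∑ q : Cyc τ, ∑ q' : Cyc τ' with f q' = q, |∑ e, if cyc τ' e = q' then s e else 0| := by
        refine Finset.sum_le_sum fun q _ => ?_
        rw [h1]
        exact Finset.abs_sum_le_sum_abs _ _
    _ = ∑ q' : Cyc τ', |∑ e, if cyc τ' e = q' then s e else 0| :=
        Finset.sum_fiberwise Finset.univ f _

end Vale.Agent.P235.R2.H588
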