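/-
P235, all planar graphs, row SPLIT (helper588), part 2: `H¹ = 0` of a plane map for antisymmetric
functions on darts, no heights (after helper271).
-/
import Vale.Agent.P235.R2.H588.Split

namespace Vale.Agent.P235.R2.H588

open Equiv Equiv.Perm H271

variable {V : Type} {G : SimpleGraph V} {σ : Equiv.Perm G.Dart} {h : V → ℝ}

theorem up_or' (hU : ∀ u v, G.Adj u v → h u ≠ h v) (d : G.Dart) : Up h d ∨ Up h d.symm := by
  rcases lt_or_gt_of_ne (hU _ _ d.adj) with h1 | h1
  · exact Or.inl h1
  · exact Or.inr h1

theorem up_symm_iff' (hU : ∀ u v, G.Adj u v → h u ≠ h v) (d : G.Dart) :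
    Up h d.symm ↔ ¬ Up h d := by
  constructor
  · intro h1 h2
    exact not_up_symm h2 h1
  · intro h1
    rcases up_or' hU d with h2 | h2
    · exact absurd h2 h1
    · exact h2

open scoped Classical in
theorem sum_darts' [Fintype G.Dart] (hU : ∀ u v, G.Adj u v → h u ≠ h v) (f : G.Dart → ℝ) :
    ∑ d, f d = ∑ d : {d : G.Dart // Up h d}, (f d.1 + f d.1.symm) := by
  rw [Finset.sum_add_distrib]
  have h1 : ∑ d : {d : G.Dart // Up h d}, f d.1 = ∑ d, if Up h d then f d else 0 := by
    rw [← Finset.sum_filter]
    exact (Finset.sum_subtype (Finset.univ.filter (fun d => Up h d)) (fun d => by simp) f).symm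
  have h2 : ∑ d : {d : G.Dart // Up h d}, f d.1.symm = ∑ d, if Up h d then f d.symm else 0 := by
    rw [← Finset.sum_filter]
    exact (Finset.sum_subtype (Finset.univ.filter (fun d => Up h d)) (fun d => by simp)
      (fun d => f d.symm)).symm
  have h3 : ∑ d, (if Up h d then f d.symm else 0) = ∑ d, if Up h d.symm then f d else 0 := by
    refine Fintype.sum_equiv (SimpleGraph.Dart.symm_involutive.toPerm _) _ _ ?_
    intro d
    simp [Function.Involutive.coe_toPerm]
  rw [h1, h2, h3, ← Finset.sum_add_distrib]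
  refine Finset.sum_congr rfl fun d _ => ?_
  by_cases hd : Up h d
  · simp [hd, not_up_symm hd]
  · simp [hd, (up_symm_iff' hU d).2 hd]

theorem card_up' [Finite V] (hU : ∀ u v, G.Adj u v → h u ≠ h v) :
    Nat.card {d : G.Dart // Up h d} = Nat.card G.edgeSet := by
  refine Nat.card_congr (Equiv.ofBijective (fun d => ⟨d.1.edge, d.1.edge_mem⟩) ⟨?_, ?_⟩)
  · rintro ⟨d, hd⟩ ⟨e, he⟩ hde
    simp only [Subtype.mk.injEq] at hde ⊢
    rcases (SimpleGraph.dart_edge_eq_iff d e).1 hde with h1 | h1
    · exact h1
    · subst h1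
      exact absurd hd (not_up_symm he)
  · rintro ⟨e, he⟩
    induction e with
    | h u v =>
      have hadj : G.Adj u v := by simpa using he
      rcases lt_or_gt_of_ne (hU _ _ hadj) with h1 | h1
      · exact ⟨⟨⟨(u, v), hadj⟩, h1⟩, rfl⟩
      · exact ⟨⟨⟨(v, u), hadj.symm⟩, h1⟩, Subtype.ext (Sym2.eq_swap)⟩

open scoped Classical in
/-- `H¹ = 0` -/
theorem exact_plane' [Fintype V] [Fintype G.Dart] [Fintype (Fc σ)] [Nonempty G.Dart]
    (hG : G.Connected) (hP : PlaneMap G σ) (hU : ∀ u v, G.Adj u v → h u ≠ h v)
    (c : {d : G.Dart // Up h d} → ℝ)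
    (hc : ∀ q : Fc σ, ∑ d, ((if phi σ d.1 = q then (1 : ℝ) else 0) -
      (if phi σ d.1.symm = q then 1 else 0)) * c d = 0) :
    ∃ g : V → ℝ, ∀ d, g d.1.snd - g d.1.fst = c d := by
  have hnV : Nonempty V := by
    obtain ⟨d⟩ := ‹Nonempty G.Dart›
    exact ⟨d.fst⟩
  have hnF : Nonempty (Fc σ) := by
    obtain ⟨d⟩ := ‹Nonempty G.Dart›
    exact ⟨phi σ d⟩
  let A : Matrix {d : G.Dart // Up h d} V ℝ := fun d v =>
    (if d.1.snd = v then (1 : ℝ) else 0) - (if d.1.fst = v then 1 else 0)
  let B : Matrix (Fc σ) {d : G.Dart // Up h d} ℝ := fun q d =>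
    (if phi σ d.1 = q then (1 : ℝ) else 0) - (if phi σ d.1.symm = q then 1 else 0)
  have hA : ∀ (x : V → ℝ) d, A.mulVec x d = x d.1.snd - x d.1.fst := by
    intro x d
    simp only [A, Matrix.mulVec, dotProduct, sub_mul, ite_mul, one_mul, zero_mul,
      Finset.sum_sub_distrib, Finset.sum_ite_eq, Finset.mem_univ, if_true]
  have hB : ∀ (x : Fc σ → ℝ) d, B.transpose.mulVec x d = x (phi σ d.1) - x (phi σ d.1.symm) := by
    intro x d
    simp only [B, Matrix.mulVec, Matrix.transpose, Matrix.of_apply, dotProduct, sub_mul, ite_mul,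
      one_mul, zero_mul, Finset.sum_sub_distrib, Finset.sum_ite_eq, Finset.mem_univ, if_true]
  have hBA : B * A = 0 := by
    ext q v
    rw [Matrix.mul_apply, Matrix.zero_apply]
    have h1 := sum_darts' hU (fun d => (if phi σ d = q then (1 : ℝ) else 0) *
      ((if d.snd = v then (1 : ℝ) else 0) - (if d.fst = v then 1 else 0)))
    have h2 : ∑ d : G.Dart, (if phi σ d = q then (1 : ℝ) else 0) *
      ((if d.snd = v then (1 : ℝ) else 0) - (if d.fst = v then 1 else 0)) = 0 := by
      simp only [mul_sub, Finset.sum_sub_distrib]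
      rw [sub_eq_zero]
      refine Fintype.sum_equiv (faceNext σ) _ _ ?_
      intro d
      rw [phi_next, next_fst hP]
    rw [h2] at h1
    rw [h1]
    refine Finset.sum_congr rfl fun d _ => ?_
    have h3 : d.1.symm.snd = d.1.fst := rfl
    have h4 : d.1.symm.fst = d.1.snd := rfl
    simp only [A, B, h3, h4]
    ring
  obtain ⟨g, hg⟩ := exact_of_rank A B hBA
    (fun d => by
      have := hA (fun _ => 1) d
      simpa [Matrix.mulVec, dotProduct] using this)
    (fun x hx u v => const_of_adj hG x (fun u v huv => by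
      rcases lt_or_gt_of_ne (hU _ _ huv) with h1 | h1
      · have h2 := congrFun hx ⟨⟨(u, v), huv⟩, h1⟩
        rw [hA] at h2
        simp only [Pi.zero_apply] at h2
        linarith
      · have h2 := congrFun hx ⟨⟨(v, u), huv.symm⟩, h1⟩
        rw [hA] at h2
        simp only [Pi.zero_apply] at h2
        linarith) u v)
    (fun d => by
      have := hB (fun _ => 1) d
      simpa [Matrix.mulVec, dotProduct, Matrix.transpose] using this)
    (fun x hx p q => by
      have h0 : ∀ d : G.Dart, x (phi σ d.symm) = x (phi σ d) := by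
        intro d
        rcases up_or' hU d with h1 | h1
        · have h2 := congrFun hx ⟨d, h1⟩
          rw [hB] at h2
          simp only [Pi.zero_apply] at h2
          linarith
        · have h2 := congrFun hx ⟨d.symm, h1⟩
          rw [hB] at h2
          simp only [Pi.zero_apply, SimpleGraph.Dart.symm_symm] at h2
          linarith
      induction p using Quotient.inductionOn with
      | h d =>
        induction q using Quotient.inductionOn with
        | h e =>
          exact const_dart hG hP (fun d => x (phi σ d))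
            (fun d => by
              show x (phi σ (σ d)) = x (phi σ d)
              rw [← phi_symm, h0]) h0 d e)
    (by
      have h1 := hP.euler
      have h2 := card_up' (G := G) hU
      have e1 : Nat.card V = Fintype.card V := Nat.card_eq_fintype_card
      have e2 : Nat.card (Fc σ) = Fintype.card (Fc σ) := Nat.card_eq_fintype_card
      have e3 : Nat.card {d : G.Dart // Up h d} = Fintype.card {d : G.Dart // Up h d} :=
        Nat.card_eq_fintype_card
      rw [← e1, ← e2, ← e3, h2]
      exact h1)
    c (by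
      ext q
      simpa [B, Matrix.mulVec, dotProduct] using hc q)
  refine ⟨g, fun d => ?_⟩
  rw [← hA, hg]

theorem exists_inj_real (V : Type) [Finite V] : ∃ h : V → ℝ, Function.Injective h := by
  have := Fintype.ofFinite V
  refine ⟨fun v => ((Fintype.equivFin V v : ℕ) : ℝ), fun a b hab => ?_⟩
  have h1 : (Fintype.equivFin V a : ℕ) = (Fintype.equivFin V b : ℕ) := Nat.cast_injective hab
  exact (Fintype.equivFin V).injective (Fin.ext h1)

theorem finite_dart [Finite V] : Finite G.Dart :=
  Finite.of_injective (fun d : G.Dart => (d.fst, d.snd)) (fun d e h => by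
    have h1 : d.toProd = e.toProd := h
    exact SimpleGraph.Dart.ext _ _ h1)

open scoped Classical in
/-- an antisymmetric function on the darts of a plane map with sum `0` over every face is the
coboundary of a function of the vertices -/
theorem exact_anti [Finite V] [Fintype G.Dart] (hG : G.Connected) (hP : PlaneMap G σ)
    (c : G.Dart → ℝ) (ha : ∀ d, c d.symm = - c d)
    (hc : ∀ q : Fc σ, ∑ d, (if phi σ d = q then c d else 0) = 0) :
    ∃ g : V → ℝ, ∀ d : G.Dart, g d.snd - g d.fst = c d := by
  have := Fintype.ofFinite V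
  rcases isEmpty_or_nonempty G.Dart with hE | hE
  · exact ⟨fun _ => 0, fun d => (hE.false d).elim⟩
  obtain ⟨h, hinj⟩ := exists_inj_real V
  have hU : ∀ u v, G.Adj u v → h u ≠ h v := fun u v huv he => huv.ne (hinj he)
  have hfin : Finite (Fc σ) := Finite.of_surjective (phi σ) (fun q => Quotient.exists_rep q)
  have := Fintype.ofFinite (Fc σ)
  obtain ⟨g, hg⟩ := exact_plane' hG hP hU (fun d => c d.1) (by
    intro q
    have h1 := sum_darts' hU (fun d => if phi σ d = q then c d else 0)
    rw [hc q] at h1
    refine Eq.trans (Finset.sum_congr rfl fun d _ => ?_) h1.symm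
    rw [ha]
    split_ifs <;> ring)
  refine ⟨g, fun d => ?_⟩
  rcases up_or' hU d with h1 | h1
  · exact hg ⟨d, h1⟩
  · have h2 := hg ⟨d.symm, h1⟩
    have h3 : d.symm.snd = d.fst := rfl
    have h4 : d.symm.fst = d.snd := rfl
    simp only [h3, h4, ha] at h2
    linarith

end Vale.Agent.P235.R2.H588
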