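/-
P235, all planar graphs, row SPLIT (helper588), part 3: potentials of the curves; a law on
configurations of curves gives an embedding into `L₁`.
-/
import Vale.Agent.P235.R2.H588.Exact

namespace Vale.Agent.P235.R2.H588

open Equiv Equiv.Perm H271 MeasureTheory

variable {V : Type} {G : SimpleGraph V} {σ : Equiv.Perm G.Dart} {E : Type}

open scoped Classical in
/-- the signed number of times that the dart `d` is crossed by the crossing `e` -/
noncomputable def inc (dart : E → G.Dart) (d : G.Dart) (e : E) : ℝ :=
  (if dart e = d then 1 else 0) - (if dart e = d.symm then 1 else 0)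

/-- the signed number of times that the walk `w` uses the crossing `e` -/
noncomputable def winc (dart : E → G.Dart) {x y : V} (w : G.Walk x y) (e : E) : ℝ :=
  (w.darts.map (fun d => inc dart d e)).sum

/-- a configuration of curves: crossings `e` over the darts `dart e`; the curve through `e` comes
from the face of `(dart e).symm`, enters the face of `dart e` and leaves it through `τ e` -/
def Cfg (σ : Equiv.Perm G.Dart) (dart : E → G.Dart) (τ : Perm E) : Prop :=
  Compat (fun e => phi σ (dart e).symm) (fun e => phi σ (dart e)) τ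

theorem inc_symm (dart : E → G.Dart) (d : G.Dart) (e : E) :
    inc dart d.symm e = - inc dart d e := by
  unfold inc
  rw [SimpleGraph.Dart.symm_symm]
  ring

open scoped Classical in
theorem sum_inc_face [Fintype G.Dart] (dart : E → G.Dart) (f : Fc σ) (e : E) :
    ∑ d, (if phi σ d = f then inc dart d e else 0) =
      (if phi σ (dart e) = f then 1 else 0) - (if phi σ (dart e).symm = f then 1 else 0) := by
  have h1 : ∀ d, (if phi σ d = f then inc dart d e else 0) =
      (if d = dart e then (if phi σ (dart e) = f then 1 else 0) else 0) -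
      (if d = (dart e).symm then (if phi σ (dart e).symm = f then 1 else 0) else 0) := by
    intro d
    have h2 : dart e = d.symm ↔ d = (dart e).symm := by
      constructor
      · intro h; rw [h, SimpleGraph.Dart.symm_symm]
      · intro h; rw [h, SimpleGraph.Dart.symm_symm]
    have h3 : dart e = d ↔ d = dart e := eq_comm
    unfold inc
    simp only [h2, h3]
    by_cases h4 : d = dart e
    · subst h4
      have h5 : dart e ≠ (dart e).symm := (SimpleGraph.Dart.symm_ne _).symm
      simp [h5]
    · by_cases h5 : d = (dart e).symm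
      · rw [h5]
        have h6 : (dart e).symm ≠ dart e := SimpleGraph.Dart.symm_ne _
        simp only [h6, if_false, if_true]
        split_ifs <;> simp
      · simp [h4, h5]
  simp_rw [h1]
  rw [Finset.sum_sub_distrib, Finset.sum_ite_eq', Finset.sum_ite_eq']
  simp

open scoped Classical in
/-- the potentials of the curves -/
theorem exists_pot [Finite V] [Fintype E] (hG : G.Connected) (hP : PlaneMap G σ)
    {dart : E → G.Dart} {τ : Perm E} (hτ : Cfg σ dart τ) (q : Cyc τ) :
    ∃ W : V → ℝ, ∀ d : G.Dart,
      W d.snd - W d.fst = ∑ e, if cyc τ e = q then inc dart d e else 0 := by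
  have := finite_dart (G := G)
  have := Fintype.ofFinite G.Dart
  refine exact_anti hG hP _ ?_ ?_
  · intro d
    rw [← Finset.sum_neg_distrib]
    refine Finset.sum_congr rfl fun e _ => ?_
    rw [inc_symm]
    split_ifs <;> simp
  · intro f
    have h1 : ∀ d : G.Dart, (if phi σ d = f then ∑ e, (if cyc τ e = q then inc dart d e else 0)
        else 0) = ∑ e, if cyc τ e = q then (if phi σ d = f then inc dart d e else 0) else 0 := by
      intro d
      split_ifs with h
      · rfl
      · simp
    simp_rw [h1]
    rw [Finset.sum_comm]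
    have h2 : ∀ e, ∑ d : G.Dart, (if cyc τ e = q then (if phi σ d = f then inc dart d e else 0)
        else 0) = (if cyc τ e = q then (if phi σ (dart e) = f then (1 : ℝ) else 0) else 0) -
          (if cyc τ e = q then (if phi σ (dart e).symm = f then 1 else 0) else 0) := by
      intro e
      split_ifs with h
      · rw [sum_inc_face]
        simp_all
      · rw [sum_inc_face]
        simp_all
      · rw [sum_inc_face]
        simp_all
      · rw [sum_inc_face]
        simp_all
      · simp
    simp_rw [h2]
    rw [Finset.sum_sub_distrib, sub_eq_zero]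
    refine Fintype.sum_equiv τ _ _ ?_
    intro e
    have h3 : cyc τ (τ e) = cyc τ e := cyc_eq.2 (sameCycle_apply_left.2 (SameCycle.refl _ _))
    have h4 : phi σ (dart (τ e)).symm = phi σ (dart e) := hτ e
    rw [h3, h4]

/-- the increment of a potential along a walk -/
theorem pot_walk [Fintype E] {dart : E → G.Dart} {P : E → Prop} [DecidablePred P] {W : V → ℝ}
    (hW : ∀ d : G.Dart, W d.snd - W d.fst = ∑ e, if P e then inc dart d e else 0) {x y : V}
    (w : G.Walk x y) : W y - W x = ∑ e, if P e then winc dart w e else 0 := by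
  induction w with
  | nil => simp [winc]
  | @cons a b c hab w ih =>
    have h1 := hW ⟨(a, b), hab⟩
    have h2 : ∀ e, winc dart (SimpleGraph.Walk.cons hab w) e =
        inc dart ⟨(a, b), hab⟩ e + winc dart w e := by
      intro e
      simp [winc]
    have h3 : W c - W a = (W b - W a) + (W c - W b) := by ring
    rw [h3, ih]
    have h4 : W b - W a = ∑ e, if P e then inc dart ⟨(a, b), hab⟩ e else 0 := h1
    rw [h4, ← Finset.sum_add_distrib]
    refine Finset.sum_congr rfl fun e _ => ?_
    rw [h2]
    split_ifs <;> ring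

theorem nrm_le [Fintype E] (τ : Perm E) (s : E → ℝ) : nrm τ s ≤ ∑ e, |s e| := by
  classical
  unfold nrm
  calc ∑ q : Cyc τ, |∑ e, if cyc τ e = q then s e else 0|
      ≤ ∑ q : Cyc τ, ∑ e, if cyc τ e = q then |s e| else 0 := by
        refine Finset.sum_le_sum fun q _ => (Finset.abs_sum_le_sum_abs _ _).trans (le_of_eq ?_)
        refine Finset.sum_congr rfl fun e _ => ?_
        split_ifs <;> simp
    _ = ∑ e, |s e| := by
        rw [Finset.sum_comm]
        refine Finset.sum_congr rfl fun e _ => ?_
        rw [Finset.sum_ite_eq]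
        simp

/-- the number of crossings of an edge -/
noncomputable def crossings (dart : E → G.Dart) (d : G.Dart) : ℕ :=
  Nat.card {e // (dart e).edge = d.edge}

theorem sum_abs_inc [Fintype E] (dart : E → G.Dart) (d : G.Dart) :
    ∑ e, |inc dart d e| = crossings dart d := by
  classical
  have h1 : ∀ e, |inc dart d e| = if (dart e).edge = d.edge then (1 : ℝ) else 0 := by
    intro e
    have h2 : d ≠ d.symm := (SimpleGraph.Dart.symm_ne _).symm
    unfold inc
    by_cases h3 : dart e = d
    · rw [h3]; simp [h2]
    · by_cases h4 : dart e = d.symm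
      · rw [h4]; simp [SimpleGraph.Dart.edge_symm, h2.symm]
      · have h5 : ¬ (dart e).edge = d.edge := by
          intro h
          rcases (SimpleGraph.dart_edge_eq_iff _ _).1 h with h6 | h6
          · exact h3 h6
          · exact h4 h6
        simp [h3, h4, h5]
  simp_rw [h1]
  rw [Finset.sum_ite, Finset.sum_const, Finset.sum_const_zero, add_zero, nsmul_one, crossings,
    Nat.card_eq_fintype_card, Fintype.card_subtype]

theorem embeds_of_fun {d : V → V → ℝ} {C : ℝ} {ι : Type} [Fintype ι] (f : ι → V → ℝ)
    (h1 : ∀ x y, d x y ≤ ∑ i, |f i x - f i y|)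
    (h2 : ∀ x y, ∑ i, |f i x - f i y| ≤ C * d x y) : EmbedsL1 d C := by
  let g : V → ι → ℝ := fun x i => f i x
  let _ : MeasurableSpace ι := ⊤
  have hmem : ∀ x, MemLp (g x) 1 (Measure.count : Measure ι) := fun x => by
    apply MemLp.of_discrete
  refine ⟨ι, ⊤, Measure.count, fun x => (hmem x).toLp (g x), ?_⟩
  have key : ∀ x y, ‖(hmem x).toLp (g x) - (hmem y).toLp (g y)‖ = ∑ i, |f i x - f i y| := by
    intro x y
    rw [← MemLp.toLp_sub, Lp.norm_toLp, eLpNorm_one_eq_lintegral_enorm, lintegral_count,
      tsum_fintype, ENNReal.toReal_sum (fun i _ => by simp)]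
    apply Finset.sum_congr rfl
    intro i _
    rw [toReal_enorm]
    rfl
  intro x y
  rw [key]
  exact ⟨h1 x y, h2 x y⟩

theorem walk_bound {F : V → V → ℝ} {ℓ : Sym2 V → ℝ} (h0 : ∀ x, F x x = 0)
    (htri : ∀ x y z, F x z ≤ F x y + F y z) (he : ∀ d : G.Dart, F d.fst d.snd ≤ ℓ d.edge)
    {x y : V} (w : G.Walk x y) : F x y ≤ (w.edges.map ℓ).sum := by
  induction w with
  | nil => simp [h0]
  | @cons a b c hab w ih =>
    have h1 := he ⟨(a, b), hab⟩
    have h2 : F a b ≤ ℓ s(a, b) := h1
    simp only [SimpleGraph.Walk.edges_cons, List.map_cons, List.sum_cons]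
    linarith [htri a b c]

/-- **a law on configurations of curves gives an embedding.**  Every edge is crossed by at most
`ℓ / lam` crossings; the expected norm between any two points is at least `pathDist / (K lam)`. -/
theorem embeds_of_law [Finite V] [Fintype E] (hG : G.Connected) (hP : PlaneMap G σ)
    (dart : E → G.Dart) (ℓ : Sym2 V → ℝ) {lam : ℝ} (hlam : 0 ≤ lam)
    (hlen : ∀ d : G.Dart, lam * crossings dart d ≤ ℓ d.edge)
    {Ω : Type} [Fintype Ω] (p : Ω → ℝ) (hp : ∀ ω, 0 ≤ p ω) (hp1 : ∑ ω, p ω = 1)
    (τ : Ω → Perm E) (hτ : ∀ ω, Cfg σ dart (τ ω)) {K : ℝ} (hK : 0 ≤ K)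
    (hs : ∀ x y, ∃ w : G.Walk x y,
      pathDist G ℓ x y ≤ K * (lam * ∑ ω, p ω * nrm (τ ω) (winc dart w))) :
    EmbedsL1 (pathDist G ℓ) K := by
  classical
  choose W hW using fun (ω : Ω) (q : Cyc (τ ω)) => exists_pot hG hP (hτ ω) q
  let f : (Σ ω : Ω, Cyc (τ ω)) → V → ℝ := fun i v => K * (lam * (p i.1 * W i.1 i.2 v))
  have hf : ∀ x y, ∑ i, |f i x - f i y| =
      K * (lam * ∑ ω, p ω * ∑ q, |W ω q y - W ω q x|) := by
    intro x y
    rw [Fintype.sum_sigma, Finset.mul_sum, Finset.mul_sum]
    refine Finset.sum_congr rfl fun ω _ => ?_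
    rw [Finset.mul_sum, Finset.mul_sum, Finset.mul_sum]
    refine Finset.sum_congr rfl fun q _ => ?_
    have h1 : f ⟨ω, q⟩ x - f ⟨ω, q⟩ y = K * (lam * (p ω * (W ω q x - W ω q y))) := by
      simp only [f]; ring
    rw [h1, abs_mul, abs_mul, abs_mul, abs_of_nonneg hK, abs_of_nonneg hlam,
      abs_of_nonneg (hp ω), abs_sub_comm]
  have hn : ∀ ω x y (w : G.Walk x y), ∑ q, |W ω q y - W ω q x| = nrm (τ ω) (winc dart w) := by
    intro ω x y w
    unfold nrm
    refine Finset.sum_congr rfl fun q _ => ?_
    rw [pot_walk (P := fun e => cyc (τ ω) e = q) (hW ω q) w]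
  refine embeds_of_fun f ?_ ?_
  · intro x y
    obtain ⟨w, hw⟩ := hs x y
    rw [hf]
    simp_rw [hn _ x y w]
    exact hw
  · intro x y
    rw [hf]
    refine mul_le_mul_of_nonneg_left ?_ hK
    have hne : Nonempty (G.Walk x y) := hG.preconnected x y
    refine le_ciInf fun w => ?_
    refine walk_bound (F := fun x y => lam * ∑ ω, p ω * ∑ q, |W ω q y - W ω q x|) ?_ ?_ ?_ w
    · intro x; simp
    · intro x y z
      rw [← mul_add, ← Finset.sum_add_distrib]
      refine mul_le_mul_of_nonneg_left (Finset.sum_le_sum fun ω _ => ?_) hlam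
      rw [← mul_add, ← Finset.sum_add_distrib]
      refine mul_le_mul_of_nonneg_left (Finset.sum_le_sum fun q _ => ?_) (hp ω)
      have h1 : W ω q z - W ω q x = (W ω q y - W ω q x) + (W ω q z - W ω q y) := by ring
      rw [h1]
      exact abs_add_le _ _
    · intro d
      refine le_trans ?_ (hlen d)
      refine mul_le_mul_of_nonneg_left ?_ hlam
      have h1 : ∀ ω, ∑ q, |W ω q d.snd - W ω q d.fst| ≤ crossings dart d := by
        intro ω
        rw [← sum_abs_inc]
        refine le_trans (le_of_eq ?_) (nrm_le (τ ω) (inc dart d))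
        unfold nrm
        refine Finset.sum_congr rfl fun q _ => ?_
        rw [hW]
      calc ∑ ω, p ω * ∑ q, |W ω q d.snd - W ω q d.fst|
          ≤ ∑ ω, p ω * (crossings dart d : ℝ) :=
            Finset.sum_le_sum fun ω _ => mul_le_mul_of_nonneg_left (h1 ω) (hp ω)
        _ = crossings dart d := by rw [← Finset.sum_mul, hp1, one_mul]

end Vale.Agent.P235.R2.H588
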