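/-
P235, all planar graphs (helper588): rows AP2a, AP3, AP4 of AP/Defs.
-/
import Vale.Agent.P235.R2.H588.Curve
import Vale.Agent.P235.R2.AP.Defs

namespace Vale.Agent.P235.R2.H588

open Equiv Equiv.Perm

open AP (UnitH Conf Curve cv zf IsPot pot NN Simp RowPot RowSplit RowEnd)

variable {V : Type} {G : SimpleGraph V} {σ : Equiv.Perm G.Dart} {u : V → ℤ}

/-- the up-dart of a crossing -/
def ud (G : SimpleGraph V) (u : V → ℤ) (e : AP.Up G u) : G.Dart := e.1

theorem cfg_of_conf {π : Equiv.Perm (AP.Up G u)} (h : Conf σ u π) : Cfg σ (ud G u) π :=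
  fun e => (h e).symm

theorem conf_of_cfg {π : Equiv.Perm (AP.Up G u)} (h : Cfg σ (ud G u) π) : Conf σ u π :=
  fun e => (h e).symm

open scoped Classical in
theorem zf_eq [Fintype (AP.Up G u)] (P : AP.Up G u → Prop) [DecidablePred P] (d : G.Dart) :
    zf {e | P e} d = ∑ e, if P e then inc (ud G u) d e else 0 := by
  have h1 : ∀ d : G.Dart, @ite ℝ (∃ e ∈ {e | P e}, ud G u e = d) (Classical.propDecidable _) 1 0 =
      ∑ e, if P e then (if ud G u e = d then 1 else 0) else 0 := by
    intro d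
    by_cases h : ∃ e ∈ {e | P e}, ud G u e = d
    · obtain ⟨e, he, rfl⟩ := h
      have he' : P e := he
      rw [if_pos ⟨e, he, rfl⟩]
      rw [Finset.sum_eq_single e]
      · rw [if_pos he', if_pos rfl]
      · intro e' _ hne
        have h2 : ¬ ud G u e' = ud G u e := fun h => hne (Subtype.ext h)
        simp [h2]
      · simp
    · rw [if_neg h]
      symm
      refine Finset.sum_eq_zero fun e _ => ?_
      by_cases he : P e
      · have h2 : ¬ ud G u e = d := fun h3 => h ⟨e, he, h3⟩
        simp [h2]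
      · simp [he]
  have h0 : zf {e | P e} d =
      @ite ℝ (∃ e ∈ {e | P e}, ud G u e = d) (Classical.propDecidable _) 1 0 -
      @ite ℝ (∃ e ∈ {e | P e}, ud G u e = d.symm) (Classical.propDecidable _) 1 0 := rfl
  rw [h0, h1 d, h1 d.symm, ← Finset.sum_sub_distrib]
  refine Finset.sum_congr rfl fun e _ => ?_
  unfold inc
  split_ifs <;> simp

instance [Finite V] : Finite (AP.Up G u) := by
  have := finite_dart (G := G)
  unfold AP.Up
  infer_instance

theorem exists_isPot [Finite V] (hG : G.Connected) (hP : PlaneMap G σ)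
    {π : Equiv.Perm (AP.Up G u)} (h : Conf σ u π) : ∃ W, IsPot π W := by
  classical
  have := Fintype.ofFinite (AP.Up G u)
  choose W hW using fun q : Cyc π => exists_pot hG hP (cfg_of_conf h) q
  refine ⟨W, fun γ d => ?_⟩
  rw [hW]
  exact (zf_eq (fun e => cyc π e = γ) d).symm

theorem isPot_pot [Finite V] (hG : G.Connected) (hP : PlaneMap G σ)
    {π : Equiv.Perm (AP.Up G u)} (h : Conf σ u π) : IsPot π (pot π) := by
  have h1 := exists_isPot hG hP h
  unfold pot
  rw [dif_pos h1]
  exact h1.choose_spec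

/-- AP2a -/
theorem rowPot : RowPot := by
  intro V _ G σ u π hG hP _ h
  exact isPot_pot hG hP h

theorem nn_eq [Finite V] [Fintype (AP.Up G u)] (hG : G.Connected) (hP : PlaneMap G σ)
    {π : Equiv.Perm (AP.Up G u)} (h : Conf σ u π) {x y : V} (w : G.Walk x y) :
    NN π x y = nrm π (winc (ud G u) w) := by
  classical
  have h1 := isPot_pot hG hP h
  unfold NN nrm
  rw [finsum_eq_sum_of_fintype]
  refine Finset.sum_congr rfl fun γ _ => ?_
  rw [abs_sub_comm, pot_walk (dart := ud G u) (P := fun e => cyc π e = γ) (W := pot π γ)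
    (fun d => ?_) w]
  rw [h1 γ d]
  exact zf_eq (fun e => cyc π e = γ) d

theorem nn_mono [Finite V] (hG : G.Connected) (hP : PlaneMap G σ)
    {π π' : Equiv.Perm (AP.Up G u)} (h : Conf σ u π) (h' : Conf σ u π')
    (hr : ∀ e e', π'.SameCycle e e' → π.SameCycle e e') (x y : V) : NN π x y ≤ NN π' x y := by
  have := Fintype.ofFinite (AP.Up G u)
  obtain ⟨w⟩ := hG.preconnected x y
  rw [nn_eq hG hP h w, nn_eq hG hP h' w]
  exact nrm_mono hr _

theorem card_cyc_lt {E : Type} [Finite E] {τ τ' : Perm E}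
    (h : ∀ x y, τ'.SameCycle x y → τ.SameCycle x y) {a b : E} (hab : τ.SameCycle a b)
    (hne : ¬ τ'.SameCycle a b) : Nat.card (Cyc τ) < Nat.card (Cyc τ') := by
  classical
  have := Fintype.ofFinite E
  rw [Nat.card_eq_fintype_card, Nat.card_eq_fintype_card]
  let f : Cyc τ' → Cyc τ := Quotient.map' id (fun x y hxy => h x y hxy)
  have hf : Function.Surjective f := by
    intro q
    obtain ⟨e, rfl⟩ := Quotient.exists_rep q
    exact ⟨cyc τ' e, rfl⟩
  refine Fintype.card_lt_of_surjective_not_injective f hf ?_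
  intro hinj
  have h1 : f (cyc τ' a) = f (cyc τ' b) := cyc_eq.2 hab
  exact hne (cyc_eq.1 (hinj h1))

/-- AP3 -/
theorem rowSplit : RowSplit := by
  intro V _ _ G _ σ u _ π e e' hG hP _ h hne hcv hfc
  have hs : π.SameCycle e e' := cyc_eq.1 hcv
  have h1 : Conf σ u (π * swap e e') := by
    intro a
    rw [Perm.mul_apply, ← h]
    by_cases h2 : a = e
    · rw [h2, swap_apply_left, hfc]
    · by_cases h3 : a = e'
      · rw [h3, swap_apply_right, hfc]
      · rw [swap_apply_of_ne_of_ne h2 h3]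
  refine ⟨h1, nn_mono hG hP h h1 (fun a b => split_refine hs), ?_⟩
  exact card_cyc_lt (fun a b => split_refine hs) hs (fun h2 => split_ne hne hs h2.symm)

/-- AP4 -/
theorem rowEnd : RowEnd := by
  intro V _ G σ u π hG hP _ h
  obtain ⟨π', h1, h2, h3⟩ := exists_clean (F := AP.Fc σ) (src := fun e : AP.Up G u =>
    AP.fc σ e.1.symm) (tgt := fun e : AP.Up G u => AP.fc σ e.1) (τ := π) (fun e => (h e).symm)
  refine ⟨π', fun e => (h1 e).symm, ?_, nn_mono hG hP h (fun e => (h1 e).symm) h3⟩
  intro e e' hc hf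
  exact h2 e e' hf (cyc_eq.1 hc)

end Vale.Agent.P235.R2.H588
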